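import Vale.Agent.P032.H437.Wt.W0
import Vale.Agent.P032.H437.Wt.W1
import Vale.Agent.P032.H437.Wt.W2
import Vale.Agent.P032.H437.Wt.W3
import Vale.Agent.P032.H437.Wt.W4
import Vale.Agent.P032.H437.Wt.W5
import Vale.Agent.P032.H437.Wt.W6
import Vale.Agent.P032.H437.Wt.W7
import Vale.Agent.P032.H184.Hold

/-!
# P032: the forbidden pairs of columns are in the tables
-/

namespace Vale.Agent.P032.H437.Wt

open Vale.Agent.P032.H429 (Cl)
open Vale.Agent.P032.H623 (IsCol)
open Vale.Agent.P032.H314 (KldE)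

theorem kld_of_kz {g g' : Cl} (h : KZ g g') : H184.Kld g g' := h

theorem rok0 : ∀ x ∈ rows0, ∀ q ∈ x.2, ∃ w, chk x.1 q w = true := by
  intro x hx
  simp only [rows0, List.mem_cons, List.not_mem_nil, or_false] at hx
  rcases hx with rfl | rfl | rfl | rfl | rfl | rfl | rfl | rfl
  exacts [k0, k8, k16, k24, k32, k40, k48, k56]

theorem rok1 : ∀ x ∈ rows1, ∀ q ∈ x.2, ∃ w, chk x.1 q w = true := by
  intro x hx
  simp only [rows1, List.mem_cons, List.not_mem_nil, or_false] at hx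
  rcases hx with rfl | rfl | rfl | rfl | rfl | rfl | rfl
  exacts [k1, k9, k17, k25, k33, k41, k49]

theorem rok2 : ∀ x ∈ rows2, ∀ q ∈ x.2, ∃ w, chk x.1 q w = true := by
  intro x hx
  simp only [rows2, List.mem_cons, List.not_mem_nil, or_false] at hx
  rcases hx with rfl | rfl | rfl | rfl | rfl | rfl | rfl
  exacts [k2, k10, k18, k26, k34, k42, k50]

theorem rok3 : ∀ x ∈ rows3, ∀ q ∈ x.2, ∃ w, chk x.1 q w = true := by
  intro x hx
  simp only [rows3, List.mem_cons, List.not_mem_nil, or_false] at hx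
  rcases hx with rfl | rfl | rfl | rfl | rfl | rfl | rfl
  exacts [k3, k11, k19, k27, k35, k43, k51]

theorem rok4 : ∀ x ∈ rows4, ∀ q ∈ x.2, ∃ w, chk x.1 q w = true := by
  intro x hx
  simp only [rows4, List.mem_cons, List.not_mem_nil, or_false] at hx
  rcases hx with rfl | rfl | rfl | rfl | rfl | rfl | rfl
  exacts [k4, k12, k20, k28, k36, k44, k52]

theorem rok5 : ∀ x ∈ rows5, ∀ q ∈ x.2, ∃ w, chk x.1 q w = true := by
  intro x hx
  simp only [rows5, List.mem_cons, List.not_mem_nil, or_false] at hx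
  rcases hx with rfl | rfl | rfl | rfl | rfl | rfl | rfl
  exacts [k5, k13, k21, k29, k37, k45, k53]

theorem rok6 : ∀ x ∈ rows6, ∀ q ∈ x.2, ∃ w, chk x.1 q w = true := by
  intro x hx
  simp only [rows6, List.mem_cons, List.not_mem_nil, or_false] at hx
  rcases hx with rfl | rfl | rfl | rfl | rfl | rfl | rfl
  exacts [k6, k14, k22, k30, k38, k46, k54]

theorem rok7 : ∀ x ∈ rows7, ∀ q ∈ x.2, ∃ w, chk x.1 q w = true := by
  intro x hx
  simp only [rows7, List.mem_cons, List.not_mem_nil, or_false] at hx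
  rcases hx with rfl | rfl | rfl | rfl | rfl | rfl | rfl
  exacts [k7, k15, k23, k31, k39, k47, k55]

theorem rows_ok : ∀ x ∈ rows, ∀ q ∈ x.2, ∃ w, chk x.1 q w = true := by
  intro x hx
  unfold rows at hx
  simp only [List.mem_append] at hx
  rcases hx with h | h | h | h | h | h | h | h
  exacts [rok0 x h, rok1 x h, rok2 x h, rok3 x h, rok4 x h, rok5 x h, rok6 x h, rok7 x h]

/-- **the pairs of the rows are in the tables** -/
theorem wit {c : ℕ} {l : List ℕ} (h : (c, l) ∈ rows) {q : ℕ} (hq : q ∈ l) {g g' : Cl}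
    (hg : IsCol g c) (hg' : IsCol g' q) : H184.Kld g g' ∨ KldE Ev2.evs g g' := by
  obtain ⟨w, hw⟩ := rows_ok _ h q hq
  exact (chk_spec hw hg hg').imp kld_of_kz id

/-- the same with `lst` -/
theorem witL {c q : ℕ} (hq : q ∈ lst c) {g g' : Cl} (hg : IsCol g c) (hg' : IsCol g' q) :
    H184.Kld g g' ∨ KldE Ev2.evs g g' := by
  obtain ⟨l, h1, h2⟩ := mem_lst.1 hq
  exact wit h1 h2 hg hg'

end Vale.Agent.P032.H437.Wt
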