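import Vale.Agent.P032.H184.Kill
import Vale.Agent.P032.H184.Z.TabD
import Vale.Agent.P032.H314.EvT
import Vale.Agent.P032.H437.Ev2.Main
import Vale.Agent.P032.H623.Cols

/-!
# P032: witnesses for the forbidden pairs of columns

`chk c q w = true` : the pair of columns with the words `c`, `q` (twelve decimal digits) is, renamed
and turned, a pair of the tables `H184.Z.tabs` or an event of `Ev2.evs`; `w` is the packed witness.
-/

namespace Vale.Agent.P032.H437.Wt

open Vale.Agent.P032.H429 (Cl)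
open Vale.Agent.P032.H623 (IsCol)
open Vale.Agent.P032.H314 (KldE rc dc)

/-- an octal digit -/
def d8 (s n : ℕ) : ℕ := Nat.land (Nat.shiftRight s (Nat.mul 3 n)) 7

/-- the entry `n` of a list -/
noncomputable def nth {α : Type} (d : α) (l : List α) : ℕ → α :=
  List.rec (motive := fun _ => ℕ → α) (fun _ => d)
    (fun a _ ih n => Nat.rec (motive := fun _ => α) a (fun m _ => ih m) n) l

theorem nth_mem {α : Type} (d : α) (l : List α) : ∀ n, nth d l n = d ∨ nth d l n ∈ l := by
  induction l with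
  | nil => intro n; exact Or.inl rfl
  | cons a l ih =>
    intro n
    cases n with
    | zero => exact Or.inr List.mem_cons_self
    | succ n =>
      rcases ih n with h | h
      · exact Or.inl h
      · exact Or.inr (List.mem_cons_of_mem _ h)

/-- the number is smaller than 6 -/
def l6 (n : ℕ) : Bool := Nat.ble n 5

/-- the renaming `s` with the inverse `t`, one colour -/
def okp1 (s t i : ℕ) : Bool :=
  (Nat.beq (d8 t (d8 s i)) i && Nat.beq (d8 s (d8 t i)) i) && (l6 (d8 s i) && l6 (d8 t i))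

/-- the renaming `s` with the inverse `t` -/
def okp (s t : ℕ) : Bool :=
  okp1 s t 0 && (okp1 s t 1 && (okp1 s t 2 && (okp1 s t 3 && (okp1 s t 4 && okp1 s t 5))))

/-- the slot `j` of the word `c` is the slot `j + r` of the code `p`, renamed by `s` -/
def sl (c p r s j : ℕ) : Bool :=
  (Nat.beq (H623.dg c (2 * j)) (d8 s (d8 p (2 * ((j + r) % 6)))) &&
    Nat.beq (H623.dg c (2 * j + 1)) (d8 s (d8 p (2 * ((j + r) % 6) + 1)))) &&
    (l6 (d8 p (2 * ((j + r) % 6))) && l6 (d8 p (2 * ((j + r) % 6) + 1)))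

/-- the word `c` is the code `p`, renamed by `s` and turned by `r` -/
def cl (c p r s : ℕ) : Bool :=
  sl c p r s 0 && (sl c p r s 1 && (sl c p r s 2 && (sl c p r s 3 && (sl c p r s 4 &&
    sl c p r s 5))))

theorem okp1_of {s t : ℕ} (h : okp s t = true) (i : Fin 6) : okp1 s t i.val = true := by
  unfold okp at h
  simp only [Bool.and_eq_true] at h
  obtain ⟨h0, h1, h2, h3, h4, h5⟩ := h
  fin_cases i
  exacts [h0, h1, h2, h3, h4, h5]

theorem sl_of {c p r s : ℕ} (h : cl c p r s = true) (i : Fin 6) : sl c p r s i.val = true := by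
  unfold cl at h
  simp only [Bool.and_eq_true] at h
  obtain ⟨h0, h1, h2, h3, h4, h5⟩ := h
  fin_cases i
  exacts [h0, h1, h2, h3, h4, h5]

theorem l6_lt {n : ℕ} (h : l6 n = true) : n < 6 := Nat.lt_succ_of_le (Nat.le_of_ble_eq_true h)

/-- the renaming -/
theorem exists_perm {s t : ℕ} (h : okp s t = true) :
    ∃ σ : Equiv.Perm (Fin 6), ∀ i : Fin 6, (σ i).val = d8 s i.val := by
  have h1 : ∀ i : Fin 6, (d8 t (d8 s i.val) = i.val ∧ d8 s (d8 t i.val) = i.val) ∧
      d8 s i.val < 6 ∧ d8 t i.val < 6 := by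
    intro i
    have h2 := okp1_of h i
    unfold okp1 at h2
    simp only [Bool.and_eq_true] at h2
    exact ⟨⟨Nat.eq_of_beq_eq_true h2.1.1, Nat.eq_of_beq_eq_true h2.1.2⟩, l6_lt h2.2.1,
      l6_lt h2.2.2⟩
  refine ⟨⟨fun i => ⟨d8 s i.val, (h1 i).2.1⟩, fun i => ⟨d8 t i.val, (h1 i).2.2⟩, ?_, ?_⟩, ?_⟩
  · intro i; exact Fin.ext (h1 i).1.1
  · intro i; exact Fin.ext (h1 i).1.2
  · intro i; rfl

/-- the column of a checked word -/
theorem col_of {c p r s : ℕ} {σ : Equiv.Perm (Fin 6)} (hσ : ∀ i : Fin 6, (σ i).val = d8 s i.val)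
    (h : cl c p r s = true) {g : Cl} (hg : IsCol g c) (j : Fin 6) :
    g j = (σ (H437.f6 (d8 p (2 * (j + H437.f6 r).val))),
      σ (H437.f6 (d8 p (2 * (j + H437.f6 r).val + 1)))) := by
  have h1 := sl_of h j
  unfold sl at h1
  simp only [Bool.and_eq_true] at h1
  obtain ⟨⟨h2, h3⟩, h4, h5⟩ := h1
  have h2 := Nat.eq_of_beq_eq_true h2
  have h3 := Nat.eq_of_beq_eq_true h3
  have h4 := l6_lt h4
  have h5 := l6_lt h5
  obtain ⟨g1, g2⟩ := hg.slot j
  have e : (j + H437.f6 r).val = (j.val + r) % 6 := by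
    show (j.val + r % 6) % 6 = (j.val + r) % 6
    omega
  rw [e]
  refine Prod.ext (Fin.ext ?_) (Fin.ext ?_)
  · show (g j).1.val = (σ _).val
    rw [hσ, g1, h2]
    show _ = d8 s (d8 p (2 * ((j.val + r) % 6)) % 6)
    rw [Nat.mod_eq_of_lt h4]
  · show (g j).2.val = (σ _).val
    rw [hσ, g2, h3]
    show _ = d8 s (d8 p (2 * ((j.val + r) % 6) + 1) % 6)
    rw [Nat.mod_eq_of_lt h5]

/-- `Kld` of `H184/Hold`, stated with the tables only -/
def KZ (a b : Cl) : Prop :=
  ∃ (σ : Equiv.Perm (Fin 6)) (r : Fin 6) (p q g : ℕ),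
    (∃ t ∈ H184.Z.tabs, ∃ l ∈ t, (p, q, g) ∈ l) ∧
    (a = fun j => (σ (H184.dcol p (j + r)).1, σ (H184.dcol p (j + r)).2)) ∧
    b = fun j => (σ (H184.dcol q (j + r)).1, σ (H184.dcol q (j + r)).2)

theorem ci_d8 (p j : ℕ) : H184.ci p j = d8 p (2 * j) := by
  have e : 6 * j = 3 * (2 * j) := by omega
  show Nat.land (Nat.shiftRight p (6 * j)) 7 = Nat.land (Nat.shiftRight p (3 * (2 * j))) 7
  rw [e]

theorem co_d8 (p j : ℕ) : H184.co p j = d8 p (2 * j + 1) := by
  have e : 6 * j + 3 = 3 * (2 * j + 1) := by omega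
  show Nat.land (Nat.shiftRight p (6 * j + 3)) 7 =
    Nat.land (Nat.shiftRight p (3 * (2 * j + 1))) 7
  rw [e]

theorem dcol_d8 (p : ℕ) (j : Fin 6) :
    H184.dcol p j = (H437.f6 (d8 p (2 * j.val)), H437.f6 (d8 p (2 * j.val + 1))) := by
  unfold H184.dcol
  rw [ci_d8, co_d8]
  rfl

theorem dc_d8 (p : ℕ) (j : Fin 6) :
    dc p j = (H437.f6 (d8 p (2 * j.val)), H437.f6 (d8 p (2 * j.val + 1))) := rfl

/-- the check of an entry of the tables -/
noncomputable def cz (c q r s : ℕ) (x : ℕ × ℕ × ℕ) : Bool :=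
  Prod.rec (motive := fun _ => Bool) (fun P y => Prod.rec (motive := fun _ => Bool)
    (fun Q _ => Nat.blt 0 P && (cl c P r s && cl q Q r s)) y) x

/-- the check of an event -/
noncomputable def ce (c q r s : ℕ) (v : Ev) : Bool :=
  Ev.rec (motive := fun _ => Bool)
    (fun _ P Q _ => Nat.blt 0 P && (cl c P r s && cl q Q r s)) v

/-- the fields of the witness -/
def wi (w : ℕ) : ℕ := Nat.land (Nat.shiftRight w 1) 15
def wj (w : ℕ) : ℕ := Nat.land (Nat.shiftRight w 5) 15
def wk (w : ℕ) : ℕ := Nat.land (Nat.shiftRight w 9) 255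
def wr (w : ℕ) : ℕ := Nat.land (Nat.shiftRight w 17) 7
def ws (w : ℕ) : ℕ := Nat.land (Nat.shiftRight w 20) 262143
def wt (w : ℕ) : ℕ := Nat.shiftRight w 38

/-- the check of a witness -/
noncomputable def chk (c q w : ℕ) : Bool :=
  okp (ws w) (wt w) && bif Nat.beq (Nat.land w 1) 0 then
    cz c q (wr w) (ws w) (nth (0, 0, 0) (nth [] (nth [] H184.Z.tabs (wi w)) (wj w)) (wk w))
  else ce c q (wr w) (ws w) (nth (Ev.mk 0 0 0 []) Ev2.evs (wk w))

theorem chk_spec {c q w : ℕ} (h : chk c q w = true) {g g' : Cl} (hg : IsCol g c)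
    (hg' : IsCol g' q) : KZ g g' ∨ KldE Ev2.evs g g' := by
  unfold chk at h
  rw [Bool.and_eq_true] at h
  obtain ⟨h1, h2⟩ := h
  obtain ⟨σ, hσ⟩ := exists_perm h1
  cases hk : Nat.beq (Nat.land w 1) 0 with
  | true =>
    rw [hk, cond_true] at h2
    left
    have m1 := nth_mem (0, 0, 0) (nth [] (nth [] H184.Z.tabs (wi w)) (wj w)) (wk w)
    obtain ⟨P, Q, G, hx⟩ : ∃ P Q G, nth (0, 0, 0)
        (nth [] (nth [] H184.Z.tabs (wi w)) (wj w)) (wk w) = (P, Q, G) := ⟨_, _, _, rfl⟩
    rw [hx] at h2 m1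
    have h3 : (Nat.blt 0 P && (cl c P (wr w) (ws w) && cl q Q (wr w) (ws w))) = true := h2
    simp only [Bool.and_eq_true] at h3
    obtain ⟨h4, h5, h6⟩ := h3
    have hP : 0 < P := Nat.lt_of_succ_le (Nat.le_of_ble_eq_true h4)
    have m2 : (P, Q, G) ∈ nth [] (nth [] H184.Z.tabs (wi w)) (wj w) := by
      rcases m1 with m1 | m1
      · have := congrArg Prod.fst m1
        simp only at this
        omega
      · exact m1
    have m3 : nth [] (nth [] H184.Z.tabs (wi w)) (wj w) ∈ nth [] H184.Z.tabs (wi w) := by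
      rcases nth_mem [] (nth [] H184.Z.tabs (wi w)) (wj w) with m | m
      · rw [m] at m2; cases m2
      · exact m
    have m4 : nth [] H184.Z.tabs (wi w) ∈ H184.Z.tabs := by
      rcases nth_mem [] H184.Z.tabs (wi w) with m | m
      · rw [m] at m3; cases m3
      · exact m
    refine ⟨σ, H437.f6 (wr w), P, Q, G, ⟨_, m4, _, m3, m2⟩, ?_, ?_⟩
    · funext j
      rw [col_of hσ h5 hg j, dcol_d8]
    · funext j
      rw [col_of hσ h6 hg' j, dcol_d8]
  | false =>
    rw [hk, cond_false] at h2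
    right
    have m1 := nth_mem (Ev.mk 0 0 0 []) Ev2.evs (wk w)
    obtain ⟨k, P, Q, M, hx⟩ : ∃ k P Q M, nth (Ev.mk 0 0 0 []) Ev2.evs (wk w) =
        Ev.mk k P Q M := by
      cases nth (Ev.mk 0 0 0 []) Ev2.evs (wk w) with
      | mk k P Q M => exact ⟨k, P, Q, M, rfl⟩
    rw [hx] at h2 m1
    have h3 : (Nat.blt 0 P && (cl c P (wr w) (ws w) && cl q Q (wr w) (ws w))) = true := h2
    simp only [Bool.and_eq_true] at h3
    obtain ⟨h4, h5, h6⟩ := h3
    have hP : 0 < P := Nat.lt_of_succ_le (Nat.le_of_ble_eq_true h4)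
    have m2 : Ev.mk k P Q M ∈ Ev2.evs := by
      rcases m1 with m1 | m1
      · injection m1 with e1 e2 e3 e4
        omega
      · exact m1
    refine ⟨k, P, Q, M, m2, σ, H437.f6 (wr w), ?_, ?_⟩
    · funext j
      rw [col_of hσ h5 hg j]
      rfl
    · funext j
      rw [col_of hσ h6 hg' j]
      rfl

/-- the check of a row -/
noncomputable def chkl (c : ℕ) (l : List ℕ) : List ℕ → Bool :=
  List.rec (motive := fun _ => List ℕ → Bool) (fun _ => true)
    (fun q _ ih m => List.rec (motive := fun _ => Bool) false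
      (fun w m' _ => Bool.rec (motive := fun _ => Bool) false (ih m') (chk c q w)) m) l

theorem chkl_spec {c : ℕ} : ∀ {l m : List ℕ}, chkl c l m = true → ∀ q ∈ l,
    ∃ w, chk c q w = true := by
  intro l
  induction l with
  | nil => intro m _ q hq; cases hq
  | cons a l ih =>
    intro m h q hq
    cases m with
    | nil => cases h
    | cons w m =>
      have h1 : (Bool.rec (motive := fun _ => Bool) false (chkl c l m) (chk c a w)) = true := h
      cases hc : chk c a w with
      | false => rw [hc] at h1; cases h1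
      | true =>
        rw [hc] at h1
        rcases List.mem_cons.1 hq with rfl | hq
        · exact ⟨w, hc⟩
        · exact ih h1 q hq

/-- the check of the rows -/
noncomputable def chkr (l : List (ℕ × List ℕ)) : List (List ℕ) → Bool :=
  List.rec (motive := fun _ => List (List ℕ) → Bool) (fun _ => true)
    (fun x _ ih m => List.rec (motive := fun _ => Bool) false
      (fun w m' _ => Bool.rec (motive := fun _ => Bool) false (ih m') (chkl x.1 x.2 w)) m) l

theorem chkr_spec : ∀ {l : List (ℕ × List ℕ)} {m : List (List ℕ)}, chkr l m = true →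
    ∀ x ∈ l, ∀ q ∈ x.2, ∃ w, chk x.1 q w = true := by
  intro l
  induction l with
  | nil => intro m _ q hq; cases hq
  | cons a l ih =>
    intro m h x hx
    cases m with
    | nil => cases h
    | cons w m =>
      have h1 : (Bool.rec (motive := fun _ => Bool) false (chkr l m) (chkl a.1 a.2 w)) =
        true := h
      cases hc : chkl a.1 a.2 w with
      | false => rw [hc] at h1; cases h1
      | true =>
        rw [hc] at h1
        rcases List.mem_cons.1 hx with rfl | hx
        · exact chkl_spec hc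
        · exact ih h1 x hx

/-- the pairs of checked rows are in the tables -/
theorem kz_of {l : List (ℕ × List ℕ)} {m : List (List ℕ)} (h : chkr l m = true) {c : ℕ}
    {r : List ℕ} (hc : (c, r) ∈ l) {q : ℕ} (hq : q ∈ r) {g g' : Cl} (hg : IsCol g c)
    (hg' : IsCol g' q) : KZ g g' ∨ KldE Ev2.evs g g' := by
  obtain ⟨w, hw⟩ := chkr_spec h _ hc q hq
  exact chk_spec hw hg hg'

end Vale.Agent.P032.H437.Wt
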